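import Vale.Agent.P068.ZMain

open Vale.Agent.P068

theorem Vale.Agent.Results.P068.Counterexample.result :
    (∃ M : Fin 2 → Matroid (ℤ × ℕ), (∀ i, (M i).E = Set.univ) ∧
      ¬ HasPackingCoveringPartition M) ∧
    (∃ M N : Matroid (ℤ × ℕ), M.E = Set.univ ∧ N.E = Set.univ ∧
      ¬ SatisfiesIntersection M N) :=
  ⟨not_pc', not_inter'⟩
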