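import Vale.Agent.P068.Main

open Vale.Agent.P068

theorem Vale.Agent.Results.P068.CounterexampleCH.result
    (h : ContinuumHypothesis ∨ CovMeagreEqContinuum ∨ ReapingEqContinuum) :
    (∃ M : Fin 2 → Matroid (ℤ × ℕ), (∀ i, (M i).E = Set.univ) ∧
      ¬ HasPackingCoveringPartition M) ∧
    (∃ M N : Matroid (ℤ × ℕ), M.E = Set.univ ∧ N.E = Set.univ ∧
      ¬ SatisfiesIntersection M N) := by
  have hR : Reap := by
    rcases h with h | h | h
    · exact reap_of_cov (cov_of_ch h)
    · exact reap_of_cov h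
    · exact h
  exact ⟨not_pc hR, not_inter hR⟩
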